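import Vale.Agent.P211.HK.WZ4

/-! P267 / NOE-d: algebra of general algebraic curvature tensors in dimension four (helper459).

`A k l i j = g(R(f_k, f_l) f_j, f_i)` in an oriented orthonormal frame. -/

set_option maxSynthPendingDepth 3
set_option linter.unusedSectionVars false

namespace Vale.Agent.P267.H459

open Vale.Agent.P211 Vale.Agent.P211.HK

noncomputable section

/-- algebraic curvature tensor, `A k l i j = g(R(f_k, f_l) f_j, f_i)` -/
structure IsCurv (A : Fin 4 → Fin 4 → Mat4) : Prop where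
  anti : ∀ k l i j, A k l i j = - A l k i j
  skew : ∀ k l, IsSkew (A k l)
  pair : ∀ k l i j, A k l i j = A i j k l
  bianchi : ∀ k l i j, A k l i j + A l i k j + A i k l j = 0

theorem isCurv_of_alg {r : Arr4} (h : IsAlgCurv r) : IsCurv fun k l i j => r k l j i where
  anti k l i j := h.anti12 k l j i
  skew k l i j := h.anti34 k l j i
  pair k l i j := by
    show r k l j i = r i j l k
    rw [h.pair k l j i, h.anti12 j i k l, h.anti34 i j k l, neg_neg]
  bianchi k l i j := by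
    show r k l j i + r l i j k + r i k j l = 0
    have h1 := h.bianchi k l i j
    have h2 := h.anti34 k l j i
    have h3 := h.anti34 l i j k
    have h4 := h.anti34 i k j l
    linarith

/-- the curvature tensor with self-dual block `X`, anti-self-dual block `Y` and mixed block `B` -/
def mkA (X Y B : Fin 3 → Fin 3 → ℝ) : Fin 4 → Fin 4 → Mat4 := fun k l i j =>
  ∑ a, ∑ b, (X a b * (Jp a k l * Jp b i j) + Y a b * (Jm a k l * Jm b i j) +
    B a b * (Jp a k l * Jm b i j + Jm b k l * Jp a i j))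

/-- `23`, `31`, `12` -/
def fA : Fin 3 → Fin 4 := ![2, 3, 1]
def fB : Fin 3 → Fin 4 := ![3, 1, 2]

theorem Jm_skew (a : Fin 3) (i j : Fin 4) : Jm a i j = - Jm a j i := by
  have : ∀ a i j, JmZ a i j = - JmZ a j i := by decide
  simp only [Jm]; rw [this]; push_cast; ring

theorem exists_XYB {A : Fin 4 → Fin 4 → Mat4} (h : IsCurv A) :
    ∃ X Y B : Fin 3 → Fin 3 → ℝ, (∀ a b, X a b = X b a) ∧ (∀ a b, Y a b = Y b a) ∧
      X 0 0 + X 1 1 + X 2 2 = Y 0 0 + Y 1 1 + Y 2 2 ∧ A = mkA X Y B := by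
  refine ⟨fun a b => (A 0 a.succ 0 b.succ + A (fA a) (fB a) (fA b) (fB b) +
      A 0 a.succ (fA b) (fB b) + A (fA a) (fB a) 0 b.succ) / 4,
    fun a b => (A 0 a.succ 0 b.succ + A (fA a) (fB a) (fA b) (fB b) -
      A 0 a.succ (fA b) (fB b) - A (fA a) (fB a) 0 b.succ) / 4,
    fun a b => (A 0 a.succ 0 b.succ - A (fA a) (fB a) (fA b) (fB b) -
      A 0 a.succ (fA b) (fB b) + A (fA a) (fB a) 0 b.succ) / 4, ?_, ?_, ?_, ?_⟩
  · intro a b
    have h1 := h.pair 0 a.succ 0 b.succ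
    have h2 := h.pair (fA a) (fB a) (fA b) (fB b)
    have h3 := h.pair 0 a.succ (fA b) (fB b)
    have h4 := h.pair (fA a) (fB a) 0 b.succ
    show _ / 4 = _ / 4
    rw [h1, h2, h3, h4]; ring
  · intro a b
    have h1 := h.pair 0 a.succ 0 b.succ
    have h2 := h.pair (fA a) (fB a) (fA b) (fB b)
    have h3 := h.pair 0 a.succ (fA b) (fB b)
    have h4 := h.pair (fA a) (fB a) 0 b.succ
    show _ / 4 = _ / 4
    rw [h1, h2, h3, h4]; ring
  · have h1 := h.pair 0 1 2 3
    have h2 := h.pair 0 2 3 1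
    have h3 := h.pair 0 3 1 2
    have hb := h.bianchi 1 2 3 0
    have e1 : A 1 2 3 0 = - A 0 3 1 2 := by
      rw [h.skew 1 2 3 0, ← h3]
    have e2 : A 2 3 1 0 = - A 0 1 2 3 := by
      rw [h.skew 2 3 1 0, ← h1]
    have e3 : A 3 1 2 0 = - A 0 2 3 1 := by
      rw [h.skew 3 1 2 0, ← h2]
    simp only [fA, fB]
    simp [show (Fin.succ (0 : Fin 3) : Fin 4) = 1 from rfl,
      show (Fin.succ (1 : Fin 3) : Fin 4) = 2 from rfl,
      show (Fin.succ (2 : Fin 3) : Fin 4) = 3 from rfl]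
    linarith
  · have key : ∀ (T T' : Fin 4 → Fin 4 → Mat4), (∀ k l i j, T k l i j = - T l k i j) →
        (∀ k l i j, T k l i j = - T k l j i) → (∀ k l i j, T' k l i j = - T' l k i j) →
        (∀ k l i j, T' k l i j = - T' k l j i) →
        (∀ k l i j, k < l → i < j → T k l i j = T' k l i j) → T = T' :=
      fun T T' a1 a2 a3 a4 a5 => ext_lt (r := T) (r' := T') a1 a2 a3 a4 a5
    refine key _ _ h.anti (fun k l i j => h.skew k l i j) ?_ ?_ ?_
    · intro k l i j
      unfold mkA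
      rw [← Finset.sum_neg_distrib]
      refine Finset.sum_congr rfl fun a _ => ?_
      rw [← Finset.sum_neg_distrib]
      refine Finset.sum_congr rfl fun b _ => ?_
      rw [Jp_skew a k l, Jm_skew a k l, Jm_skew b k l]; ring
    · intro k l i j
      unfold mkA
      rw [← Finset.sum_neg_distrib]
      refine Finset.sum_congr rfl fun a _ => ?_
      rw [← Finset.sum_neg_distrib]
      refine Finset.sum_congr rfl fun b _ => ?_
      rw [Jp_skew b i j, Jp_skew a i j, Jm_skew b i j]; ring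
    · intro k l i j hkl hij
      have s1 : ∀ i j, A 1 3 i j = - A 3 1 i j := fun i j => h.anti 1 3 i j
      have s2 : ∀ k l, A k l 1 3 = - A k l 3 1 := fun k l => h.skew k l 1 3
      have q0 := h.pair 0 1 0 2
      have q1 := h.pair 0 1 0 3
      have q2 := h.pair 0 1 2 3
      have q3 := h.pair 0 1 3 1
      have q4 := h.pair 0 1 1 2
      have q5 := h.pair 0 2 0 3
      have q6 := h.pair 0 2 2 3
      have q7 := h.pair 0 2 3 1
      have q8 := h.pair 0 2 1 2
      have q9 := h.pair 0 3 2 3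
      have q10 := h.pair 0 3 3 1
      have q11 := h.pair 0 3 1 2
      have q12 := h.pair 2 3 3 1
      have q13 := h.pair 2 3 1 2
      have q14 := h.pair 3 1 1 2
      clear key
      unfold mkA
      fin_cases k <;> fin_cases l <;> first | (exact absurd hkl (by decide)) | skip
      all_goals (fin_cases i <;> fin_cases j <;> first | (exact absurd hij (by decide)) | skip)
      all_goals
        simp [Jp, Jm, JpZ, JmZ, Fin.sum_univ_three, fA, fB,
          show (Fin.succ (1 : Fin 3) : Fin 4) = 2 from rfl,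
          show (Fin.succ (2 : Fin 3) : Fin 4) = 3 from rfl]
      all_goals
        (try simp only [s1, s2])
      all_goals linarith

/-! ### two-forms -/

/-- the skew matrix with self-dual part `u` and anti-self-dual part `v` -/
def mk2 (u v : Fin 3 → ℝ) : Mat4 := fun i j => ∑ b, (u b * Jp b i j + v b * Jm b i j)

/-- the coefficient of the wedge product of two two-forms -/
def wdg (u v : Fin 4 → Fin 4 → ℝ) : ℝ :=
  u 0 1 * v 2 3 - u 0 2 * v 1 3 + u 0 3 * v 1 2 + u 1 2 * v 0 3 - u 1 3 * v 0 2 + u 2 3 * v 0 1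

theorem mkA_eq (X Y B : Fin 3 → Fin 3 → ℝ) (k l : Fin 4) :
    mkA X Y B k l = mk2 (fun b => mk2 (fun a => X a b) (fun a => B b a) k l)
      (fun b => mk2 (fun a => B a b) (fun a => Y a b) k l) := by
  funext i j
  simp only [mkA, mk2, Fin.sum_univ_three]
  ring

theorem mk2_eq (u v : Fin 3 → ℝ) : mk2 u v =
    ![![0, u 0 + v 0, u 1 + v 1, u 2 + v 2], ![-(u 0 + v 0), 0, u 2 - v 2, -(u 1 - v 1)],
      ![-(u 1 + v 1), -(u 2 - v 2), 0, u 0 - v 0],
      ![-(u 2 + v 2), u 1 - v 1, -(u 0 - v 0), 0]] := by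
  funext i j
  fin_cases i <;> fin_cases j <;>
    simp [mk2, Jp, Jm, JpZ, JmZ, Fin.sum_univ_three] <;> ring

theorem skew_mk2 (u v : Fin 3 → ℝ) : IsSkew (mk2 u v) := by
  intro i j
  rw [mk2_eq]
  fin_cases i <;> fin_cases j <;> simp

theorem sum_mk2 (u v u' v' : Fin 3 → ℝ) :
    ∑ i, ∑ j, mk2 u v i j * mk2 u' v' i j = 4 * ∑ b, (u b * u' b + v b * v' b) := by
  rw [mk2_eq, mk2_eq]
  simp [Fin.sum_univ_four, Fin.sum_univ_three]
  ring

theorem tr_mk2 (u v u' v' : Fin 3 → ℝ) :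
    ∑ i, ∑ j, mk2 u v i j * mk2 u' v' j i = - 4 * ∑ b, (u b * u' b + v b * v' b) := by
  have h : ∀ i j, mk2 u v i j * mk2 u' v' j i = - (mk2 u v i j * mk2 u' v' i j) := by
    intro i j
    rw [skew_mk2 u' v' j i]; ring
  simp only [h, Finset.sum_neg_distrib, sum_mk2]
  ring

theorem wdg_mk2 (u v u' v' : Fin 3 → ℝ) :
    wdg (mk2 u v) (mk2 u' v') = 2 * ∑ b, (u b * u' b - v b * v' b) := by
  rw [mk2_eq, mk2_eq]
  simp [wdg, Fin.sum_univ_three]
  ring

/-- `lamD` on the normal form -/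
theorem lamD_mk2 (u v : Fin 3 → ℝ) : lamD (mk2 u v) =
    ![![0, -(2 * v 2), 2 * v 1], ![2 * v 2, 0, -(2 * v 0)], ![-(2 * v 1), 2 * v 0, 0]] := by
  funext a b
  rw [WZ.lamD_eq (skew_mk2 u v), mk2_eq]
  fin_cases a <;> fin_cases b <;>
    simp [epsZ, JmZ, Fin.sum_univ_four] <;> ring

/-- trace of the product of two skew three by three matrices `lamD` -/
theorem tr_lamD_mk2 (u v u' v' : Fin 3 → ℝ) :
    ∑ a, ∑ b, lamD (mk2 u v) a b * lamD (mk2 u' v') b a = - 8 * ∑ b, v b * v' b := by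
  rw [lamD_mk2, lamD_mk2]
  simp [Fin.sum_univ_three]
  ring

theorem sum_lamD_mk2 (u v u' v' : Fin 3 → ℝ) :
    ∑ a, ∑ b, lamD (mk2 u v) a b * lamD (mk2 u' v') a b = 8 * ∑ b, v b * v' b := by
  rw [lamD_mk2, lamD_mk2]
  simp [Fin.sum_univ_three]
  ring

theorem mHd_mul (A A' : Mat4) : ∑ i, ∑ j, mHd A i j * mHd A' j i =
    ∑ a, ∑ b, lamD A a b * lamD A' b a := by
  rw [Fin.sum_univ_succ]
  simp only [mHd_zero_left, zero_mul, Finset.sum_const_zero, zero_add]
  refine Finset.sum_congr rfl fun a _ => ?_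
  rw [Fin.sum_univ_succ]
  simp

/-! ### the zeroth order terms -/

/-- zeroth order term of `D'D` on `T` (the Ricci tensor) -/
def ricM (A : Fin 4 → Fin 4 → Mat4) : Mat4 := fun j m =>
  -(1 / 2) * ∑ k, ∑ l, ∑ n, (gZ k l j n : ℝ) * A k l n m

/-- zeroth order term of `DD'` on `R + L₋` -/
def lapM (A : Fin 4 → Fin 4 → Mat4) : Mat4 := fun j m =>
  -(1 / 2) * ∑ k, ∑ l, ∑ n, (hZ k l j n : ℝ) * mHd (A k l) n m

/-- `∑ tr Ω_kl Ω_kl` on `T` -/
def trT (A : Fin 4 → Fin 4 → Mat4) : ℝ := ∑ k, ∑ l, ∑ i, ∑ j, A k l i j * A k l j i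

/-- `∑ tr Ω_kl Ω_kl` on `R + L₋` -/
def trH (A : Fin 4 → Fin 4 → Mat4) : ℝ := ∑ k, ∑ l, ∑ i, ∑ j, mHd (A k l) i j * mHd (A k l) j i

/-- `pi^2` times the local index density of `D` -/
def dens (A : Fin 4 → Fin 4 → Mat4) : ℝ :=
  (1 / 192) * (trH A - trT A) + (1 / 32) * ((∑ i, ∑ j, lapM A i j * lapM A j i) -
    ∑ i, ∑ j, ricM A i j * ricM A j i)

/-- squared norm -/
def n2 (X : Fin 3 → Fin 3 → ℝ) : ℝ := ∑ a, ∑ b, X a b ^ 2

theorem trT_mk (X Y B : Fin 3 → Fin 3 → ℝ) : trT (mkA X Y B) = - 16 * (n2 X + n2 Y + 2 * n2 B) := by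
  unfold trT
  simp only [mkA_eq, tr_mk2]
  have e : ∑ k, ∑ l, -4 * ∑ b, (mk2 (fun a => X a b) (fun a => B b a) k l *
      mk2 (fun a => X a b) (fun a => B b a) k l + mk2 (fun a => B a b) (fun a => Y a b) k l *
      mk2 (fun a => B a b) (fun a => Y a b) k l) =
      -4 * ∑ b, ((∑ k, ∑ l, mk2 (fun a => X a b) (fun a => B b a) k l *
      mk2 (fun a => X a b) (fun a => B b a) k l) + ∑ k, ∑ l, mk2 (fun a => B a b) (fun a => Y a b) k l *
      mk2 (fun a => B a b) (fun a => Y a b) k l) := by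
    simp only [← Finset.mul_sum, Finset.sum_add_distrib, Fin.sum_univ_three]
  rw [e]
  simp only [sum_mk2, n2, Fin.sum_univ_three]
  ring

theorem trH_mk (X Y B : Fin 3 → Fin 3 → ℝ) : trH (mkA X Y B) = - 32 * (n2 Y + n2 B) := by
  unfold trH
  simp only [mHd_mul, mkA_eq, tr_lamD_mk2]
  have e : ∑ k, ∑ l, -8 * ∑ b, (mk2 (fun a => B a b) (fun a => Y a b) k l *
      mk2 (fun a => B a b) (fun a => Y a b) k l) =
      -8 * ∑ b, ∑ k, ∑ l, mk2 (fun a => B a b) (fun a => Y a b) k l *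
      mk2 (fun a => B a b) (fun a => Y a b) k l := by
    simp only [← Finset.mul_sum, Finset.sum_add_distrib, Fin.sum_univ_three]
  rw [e]
  simp only [sum_mk2, n2, Fin.sum_univ_three]
  ring

/-! ### contraction with the Clifford matrices -/

theorem g_mk2 (u v : Fin 3 → ℝ) (i j : Fin 4) :
    ∑ k, ∑ l, (gZ k l i j : ℝ) * mk2 u v k l = 4 * ∑ a, u a * Jp a i j := by
  have h1 : ∀ a, ∑ k, ∑ l, (gZ k l i j : ℝ) * Jp a k l = 4 * Jp a i j := by
    intro a
    have := congrArg (fun z : ℤ => (z : ℝ)) (WZ.gZ_Jp a i j)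
    simp only [WZ.s4_cast] at this
    push_cast at this
    exact this
  have h2 : ∀ a, ∑ k, ∑ l, (gZ k l i j : ℝ) * Jm a k l = 0 := by
    intro a
    have := congrArg (fun z : ℤ => (z : ℝ)) (gZ_Jm a i j)
    simp only [WZ.s4_cast] at this
    push_cast at this
    simp only [mul_comm (JmZ _ _ _ : ℝ)] at this
    exact this
  have e : ∑ k, ∑ l, (gZ k l i j : ℝ) * mk2 u v k l =
      ∑ a, (u a * (∑ k, ∑ l, (gZ k l i j : ℝ) * Jp a k l) +
        v a * ∑ k, ∑ l, (gZ k l i j : ℝ) * Jm a k l) := by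
    simp only [mk2, Finset.mul_sum, ← Finset.sum_add_distrib]
    have : ∀ k, ∑ l, ∑ a, (gZ k l i j : ℝ) * (u a * Jp a k l + v a * Jm a k l) =
        ∑ a, ∑ l, (gZ k l i j : ℝ) * (u a * Jp a k l + v a * Jm a k l) := fun k => Finset.sum_comm
    simp only [this]
    rw [Finset.sum_comm]
    refine Finset.sum_congr rfl fun a _ => Finset.sum_congr rfl fun k _ =>
      Finset.sum_congr rfl fun l _ => ?_
    ring
  rw [e]
  simp only [h1, h2, mul_zero, add_zero, Finset.mul_sum]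
  exact Finset.sum_congr rfl fun a _ => by ring

theorem h_mk2 (u v : Fin 3 → ℝ) (i j : Fin 4) :
    ∑ k, ∑ l, (hZ k l i j : ℝ) * mk2 u v k l = ∑ a, v a * (WZ.HZ' a i j : ℝ) := by
  have h1 : ∀ a, ∑ k, ∑ l, (hZ k l i j : ℝ) * Jp a k l = 0 := by
    intro a
    have := congrArg (fun z : ℤ => (z : ℝ)) (hZ_Jp a i j)
    simp only [WZ.s4_cast] at this
    push_cast at this
    simp only [mul_comm (JpZ _ _ _ : ℝ)] at this
    exact this
  have h2 : ∀ a, ∑ k, ∑ l, (hZ k l i j : ℝ) * Jm a k l = (WZ.HZ' a i j : ℝ) := by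
    intro a
    have := congrArg (fun z : ℤ => (z : ℝ)) (WZ.HZ_eq a i j)
    simp only [WZ.HZ, WZ.s4_cast] at this
    push_cast at this
    exact this
  have e : ∑ k, ∑ l, (hZ k l i j : ℝ) * mk2 u v k l =
      ∑ a, (u a * (∑ k, ∑ l, (hZ k l i j : ℝ) * Jp a k l) +
        v a * ∑ k, ∑ l, (hZ k l i j : ℝ) * Jm a k l) := by
    simp only [mk2, Finset.mul_sum, ← Finset.sum_add_distrib]
    have : ∀ k, ∑ l, ∑ a, (hZ k l i j : ℝ) * (u a * Jp a k l + v a * Jm a k l) =
        ∑ a, ∑ l, (hZ k l i j : ℝ) * (u a * Jp a k l + v a * Jm a k l) := fun k => Finset.sum_comm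
    simp only [this]
    rw [Finset.sum_comm]
    refine Finset.sum_congr rfl fun a _ => Finset.sum_congr rfl fun k _ =>
      Finset.sum_congr rfl fun l _ => ?_
    ring
  rw [e]
  simp only [h1, h2, mul_zero, zero_add]

theorem ricM_mk (X Y B : Fin 3 → Fin 3 → ℝ) (j m : Fin 4) : ricM (mkA X Y B) j m =
    -2 * ∑ n, ∑ b, ((∑ a, X a b * Jp a j n) * Jp b n m + (∑ a, B a b * Jp a j n) * Jm b n m) := by
  unfold ricM
  have e : ∑ k, ∑ l, ∑ n, (gZ k l j n : ℝ) * mkA X Y B k l n m =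
      ∑ n, ∑ b, ((∑ k, ∑ l, (gZ k l j n : ℝ) * mk2 (fun a => X a b) (fun a => B b a) k l) * Jp b n m +
        (∑ k, ∑ l, (gZ k l j n : ℝ) * mk2 (fun a => B a b) (fun a => Y a b) k l) * Jm b n m) := by
    simp only [mkA_eq, Finset.sum_mul, ← Finset.sum_add_distrib]
    have h1 : ∀ k, ∑ l, ∑ n, (gZ k l j n : ℝ) * mk2 (fun b => mk2 (fun a => X a b) (fun a => B b a) k l)
        (fun b => mk2 (fun a => B a b) (fun a => Y a b) k l) n m =
        ∑ n, ∑ l, (gZ k l j n : ℝ) * mk2 (fun b => mk2 (fun a => X a b) (fun a => B b a) k l)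
        (fun b => mk2 (fun a => B a b) (fun a => Y a b) k l) n m := fun k => Finset.sum_comm
    simp only [h1]
    rw [Finset.sum_comm]
    refine Finset.sum_congr rfl fun n _ => ?_
    have h2 : ∀ k l, (gZ k l j n : ℝ) * mk2 (fun b => mk2 (fun a => X a b) (fun a => B b a) k l)
        (fun b => mk2 (fun a => B a b) (fun a => Y a b) k l) n m =
        ∑ b, ((gZ k l j n : ℝ) * mk2 (fun a => X a b) (fun a => B b a) k l * Jp b n m +
          (gZ k l j n : ℝ) * mk2 (fun a => B a b) (fun a => Y a b) k l * Jm b n m) := by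
      intro k l
      rw [show mk2 (fun b => mk2 (fun a => X a b) (fun a => B b a) k l)
        (fun b => mk2 (fun a => B a b) (fun a => Y a b) k l) n m =
        ∑ b, (mk2 (fun a => X a b) (fun a => B b a) k l * Jp b n m +
          mk2 (fun a => B a b) (fun a => Y a b) k l * Jm b n m) from rfl, Finset.mul_sum]
      exact Finset.sum_congr rfl fun b _ => by ring
    simp only [h2]
    have h3 : ∀ k, ∑ l, ∑ b, ((gZ k l j n : ℝ) * mk2 (fun a => X a b) (fun a => B b a) k l * Jp b n m +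
          (gZ k l j n : ℝ) * mk2 (fun a => B a b) (fun a => Y a b) k l * Jm b n m) =
        ∑ b, ∑ l, ((gZ k l j n : ℝ) * mk2 (fun a => X a b) (fun a => B b a) k l * Jp b n m +
          (gZ k l j n : ℝ) * mk2 (fun a => B a b) (fun a => Y a b) k l * Jm b n m) :=
      fun k => Finset.sum_comm
    simp only [h3]
    exact Finset.sum_comm
  rw [e]
  simp only [g_mk2, Finset.mul_sum, Finset.sum_mul]
  simp only [mul_add, Finset.mul_sum]
  refine Finset.sum_congr rfl fun n _ => Finset.sum_congr rfl fun b _ => ?_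
  congr 1
  · exact Finset.sum_congr rfl fun a _ => by ring
  · exact Finset.sum_congr rfl fun a _ => by ring

theorem lamD_mk2' (u v : Fin 3 → ℝ) (a b : Fin 3) :
    lamD (mk2 u v) a b = -2 * ∑ c, (epsZ c a b : ℝ) * v c := by
  rw [lamD_mk2]
  fin_cases a <;> fin_cases b <;> simp [epsZ]

theorem lapM_zero (A : Fin 4 → Fin 4 → Mat4) (j : Fin 4) : lapM A j 0 = 0 := by
  unfold lapM
  have : ∀ k l n, (hZ k l j n : ℝ) * mHd (A k l) n 0 = 0 := by
    intro k l n
    refine Fin.cases ?_ (fun n => ?_) n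
    · simp
    · simp
  simp only [this]
  simp

theorem lapM_mk (X Y B : Fin 3 → Fin 3 → ℝ) (j : Fin 4) (m : Fin 3) : lapM (mkA X Y B) j m.succ =
    ∑ a : Fin 3, ∑ c, (epsZ c a m : ℝ) * ∑ d, Y d c * (WZ.HZ' d j a.succ : ℝ) := by
  unfold lapM
  have h0 : ∀ k l, ∑ n, (hZ k l j n : ℝ) * mHd (mkA X Y B k l) n m.succ =
      ∑ a : Fin 3, ∑ c, (-2 * (epsZ c a m : ℝ)) *
        ((hZ k l j a.succ : ℝ) * mk2 (fun b => B b c) (fun b => Y b c) k l) := by
    intro k l
    rw [Fin.sum_univ_succ]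
    simp only [mHd_zero_left, mul_zero, zero_add, mHd_succ_succ, mkA_eq, lamD_mk2', Finset.mul_sum]
    refine Finset.sum_congr rfl fun a _ => Finset.sum_congr rfl fun c _ => ?_
    ring
  simp only [h0]
  have h1 : ∀ k, ∑ l, ∑ a : Fin 3, ∑ c, (-2 * (epsZ c a m : ℝ)) *
        ((hZ k l j a.succ : ℝ) * mk2 (fun b => B b c) (fun b => Y b c) k l) =
      ∑ a : Fin 3, ∑ c, ∑ l, (-2 * (epsZ c a m : ℝ)) *
        ((hZ k l j a.succ : ℝ) * mk2 (fun b => B b c) (fun b => Y b c) k l) := by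
    intro k
    rw [Finset.sum_comm]
    exact Finset.sum_congr rfl fun a _ => Finset.sum_comm
  simp only [h1]
  rw [Finset.sum_comm, Finset.mul_sum]
  refine Finset.sum_congr rfl fun a _ => ?_
  rw [Finset.sum_comm, Finset.mul_sum]
  refine Finset.sum_congr rfl fun c _ => ?_
  simp only [← Finset.mul_sum, h_mk2]
  ring

/-- the Ricci tensor in the normal form -/
theorem ricM_sq {X Y B : Fin 3 → Fin 3 → ℝ} (hX : ∀ a b, X a b = X b a) :
    ∑ i, ∑ j, ricM (mkA X Y B) i j * ricM (mkA X Y B) j i =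
      16 * (X 0 0 + X 1 1 + X 2 2) ^ 2 + 16 * n2 B := by
  have h01 := hX 1 0
  have h02 := hX 2 0
  have h12 := hX 2 1
  simp only [ricM_mk]
  simp [Fin.sum_univ_four, Fin.sum_univ_three, Jp, Jm, JpZ, JmZ, h01, h02, h12, n2]
  ring

/-- trace of the Ricci tensor in the normal form -/
theorem ricM_tr {X Y B : Fin 3 → Fin 3 → ℝ} :
    ∑ i, ricM (mkA X Y B) i i = 8 * (X 0 0 + X 1 1 + X 2 2) := by
  simp only [ricM_mk]
  simp [Fin.sum_univ_four, Fin.sum_univ_three, Jp, Jm, JpZ, JmZ]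
  ring

theorem lapM_mk_zero {X Y B : Fin 3 → Fin 3 → ℝ} (hY : ∀ a b, Y a b = Y b a) (m : Fin 3) :
    lapM (mkA X Y B) 0 m.succ = 0 := by
  have h01 := hY 1 0
  have h02 := hY 2 0
  have h12 := hY 2 1
  rw [lapM_mk]
  fin_cases m <;> simp [Fin.sum_univ_three, epsZ, WZ.HZ', h01, h02, h12]

theorem lapM_mk_succ {X Y B : Fin 3 → Fin 3 → ℝ} (j m : Fin 3) :
    lapM (mkA X Y B) j.succ m.succ =
      4 * ((if j = m then Y 0 0 + Y 1 1 + Y 2 2 else 0) - Y m j) := by
  rw [lapM_mk]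
  fin_cases j <;> fin_cases m <;> simp [Fin.sum_univ_three, epsZ, WZ.HZ'] <;> ring

theorem lapM_sq {X Y B : Fin 3 → Fin 3 → ℝ} (hY : ∀ a b, Y a b = Y b a) :
    ∑ i, ∑ j, lapM (mkA X Y B) i j * lapM (mkA X Y B) j i =
      16 * (Y 0 0 + Y 1 1 + Y 2 2) ^ 2 + 16 * n2 Y := by
  have h01 := hY 1 0
  have h02 := hY 2 0
  have h12 := hY 2 1
  rw [Fin.sum_univ_succ]
  simp only [Fin.sum_univ_succ (n := 3), lapM_zero, lapM_mk_zero hY, lapM_mk_succ]
  simp [Fin.sum_univ_three, h01, h02, h12, n2]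
  ring

theorem lapM_tr {X Y B : Fin 3 → Fin 3 → ℝ} :
    ∑ i, lapM (mkA X Y B) i i = 8 * (Y 0 0 + Y 1 1 + Y 2 2) := by
  rw [Fin.sum_univ_succ]
  simp only [lapM_zero, lapM_mk_succ, zero_add]
  simp [Fin.sum_univ_three]
  ring

theorem dens_mk {X Y B : Fin 3 → Fin 3 → ℝ} (hX : ∀ a b, X a b = X b a)
    (hY : ∀ a b, Y a b = Y b a) (ht : X 0 0 + X 1 1 + X 2 2 = Y 0 0 + Y 1 1 + Y 2 2) :
    dens (mkA X Y B) = (1 / 12) * n2 X + (5 / 12) * n2 Y - (1 / 2) * n2 B := by
  unfold dens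
  rw [trH_mk, trT_mk, lapM_sq hY, ricM_sq hX, ht]
  ring

/-! ### reversal of the orientation -/

/-- sign of the reversed frame -/
def sg (i : Fin 4) : ℝ := if i = 0 then -1 else 1

/-- the curvature in the frame `(-f_0, f_1, f_2, f_3)` -/
def flip (A : Fin 4 → Fin 4 → Mat4) : Fin 4 → Fin 4 → Mat4 := fun k l i j =>
  sg k * sg l * sg i * sg j * A k l i j

theorem sg_sq (i : Fin 4) : sg i * sg i = 1 := by
  unfold sg; split_ifs <;> norm_num

theorem sg_Jp (a : Fin 3) (i j : Fin 4) : sg i * sg j * Jp a i j = - Jm a i j := by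
  fin_cases a <;> fin_cases i <;> fin_cases j <;> simp [sg, Jp, Jm, JpZ, JmZ]

theorem sg_Jm (a : Fin 3) (i j : Fin 4) : sg i * sg j * Jm a i j = - Jp a i j := by
  fin_cases a <;> fin_cases i <;> fin_cases j <;> simp [sg, Jp, Jm, JpZ, JmZ]

theorem flip_mkA (X Y B : Fin 3 → Fin 3 → ℝ) :
    flip (mkA X Y B) = mkA Y X fun a b => B b a := by
  funext k l i j
  unfold flip mkA
  have h : sg k * sg l * sg i * sg j * ∑ a, ∑ b, (X a b * (Jp a k l * Jp b i j) +
      Y a b * (Jm a k l * Jm b i j) + B a b * (Jp a k l * Jm b i j + Jm b k l * Jp a i j)) =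
      ∑ a, ∑ b, (X a b * (Jm a k l * Jm b i j) + Y a b * (Jp a k l * Jp b i j) +
        B a b * (Jm a k l * Jp b i j + Jp b k l * Jm a i j)) := by
    rw [Finset.mul_sum]
    refine Finset.sum_congr rfl fun a _ => ?_
    rw [Finset.mul_sum]
    refine Finset.sum_congr rfl fun b _ => ?_
    calc _ = X a b * ((sg k * sg l * Jp a k l) * (sg i * sg j * Jp b i j)) +
          Y a b * ((sg k * sg l * Jm a k l) * (sg i * sg j * Jm b i j)) +
          B a b * ((sg k * sg l * Jp a k l) * (sg i * sg j * Jm b i j) +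
            (sg k * sg l * Jm b k l) * (sg i * sg j * Jp a i j)) := by ring
      _ = _ := by
        simp only [sg_Jp, sg_Jm]; ring
  rw [h]
  simp only [Fin.sum_univ_three]
  ring

theorem flip_flip (A : Fin 4 → Fin 4 → Mat4) : flip (flip A) = A := by
  funext k l i j
  unfold flip
  have h1 := sg_sq k
  have h2 := sg_sq l
  have h3 := sg_sq i
  have h4 := sg_sq j
  calc _ = (sg k * sg k) * (sg l * sg l) * (sg i * sg i) * (sg j * sg j) * A k l i j := by ring
    _ = _ := by rw [h1, h2, h3, h4]; ring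

theorem isCurv_flip {A : Fin 4 → Fin 4 → Mat4} (h : IsCurv A) : IsCurv (flip A) where
  anti k l i j := by unfold flip; rw [h.anti k l i j]; ring
  skew k l i j := by unfold flip; rw [h.skew k l i j]; ring
  pair k l i j := by unfold flip; rw [h.pair k l i j]; ring
  bianchi k l i j := by
    have := h.bianchi k l i j
    unfold flip
    linear_combination sg k * sg l * sg i * sg j * this

/-! ### results for algebraic curvature tensors -/

section main

variable {A : Fin 4 → Fin 4 → Mat4}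

/-- The zeroth order term on `T` is the Ricci tensor. -/
theorem ricM_symm (h : IsCurv A) (i j : Fin 4) : ricM A i j = ricM A j i := by
  obtain ⟨X, Y, B, hX, hY, ht, rfl⟩ := exists_XYB h
  have h01 := hX 1 0
  have h02 := hX 2 0
  have h12 := hX 2 1
  rw [ricM_mk, ricM_mk]
  fin_cases i <;> fin_cases j <;>
  · simp [Fin.sum_univ_four, Fin.sum_univ_three, Jp, Jm, JpZ, JmZ, h01, h02, h12]
    try ring

theorem lapM_symm (h : IsCurv A) (i j : Fin 4) : lapM A i j = lapM A j i := by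
  obtain ⟨X, Y, B, hX, hY, ht, rfl⟩ := exists_XYB h
  refine Fin.cases ?_ (fun i => ?_) i
  · refine Fin.cases rfl (fun j => ?_) j
    rw [lapM_zero, lapM_mk_zero hY]
  · refine Fin.cases ?_ (fun j => ?_) j
    · rw [lapM_zero, lapM_mk_zero hY]
    · rw [lapM_mk_succ, lapM_mk_succ, hY i j]
      by_cases hij : i = j
      · rw [if_pos hij, if_pos hij.symm]
      · rw [if_neg hij, if_neg (Ne.symm hij)]

/-- the function component does not see the curvature -/
theorem lapM_row (h : IsCurv A) (i : Fin 4) : lapM A 0 i = 0 := by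
  rw [lapM_symm h, lapM_zero]

/-- both zeroth order terms have trace `scal` -/
theorem tr_eq (h : IsCurv A) : ∑ i, lapM A i i = ∑ i, ricM A i i := by
  obtain ⟨X, Y, B, hX, hY, ht, rfl⟩ := exists_XYB h
  rw [lapM_tr, ricM_tr, ht]

/-- Pfaffian density (times `pi^2`) -/
def pfD (A : Fin 4 → Fin 4 → Mat4) : ℝ :=
  (1 / 4) * wdg (fun k l => A k l 0 1) (fun k l => A k l 2 3) -
    (1 / 4) * wdg (fun k l => A k l 0 2) (fun k l => A k l 1 3) +
    (1 / 4) * wdg (fun k l => A k l 0 3) (fun k l => A k l 1 2)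

/-- first Pontryagin density (times `pi^2`), `-(1/8 pi^2) tr Ω ∧ Ω` -/
def p1D (A : Fin 4 → Fin 4 → Mat4) : ℝ :=
  (1 / 8) * ∑ i, ∑ j, wdg (fun k l => A k l i j) fun k l => A k l i j

/-- `pi^2` times `(1/4 pi^2) ∑_a F_a ∧ F_a`, `F` the curvature of `L₋`; note the reversed
orientation: the sum of the wedge products is taken with respect to `-om`. -/
def sqD (A : Fin 4 → Fin 4 → Mat4) : ℝ :=
  -(1 / 8) * ∑ a, ∑ b, wdg (fun k l => lamD (A k l) a b) fun k l => lamD (A k l) a b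

theorem wdg_add_left (u u' v : Fin 4 → Fin 4 → ℝ) :
    wdg (fun k l => u k l + u' k l) v = wdg u v + wdg u' v := by
  unfold wdg; ring

theorem wdg_comm (u v : Fin 4 → Fin 4 → ℝ) : wdg u v = wdg v u := by
  unfold wdg; ring

theorem p1D_mk (X Y B : Fin 3 → Fin 3 → ℝ) : p1D (mkA X Y B) = n2 X - n2 Y := by
  unfold p1D
  have e : ∑ i, ∑ j, wdg (fun k l => mkA X Y B k l i j) (fun k l => mkA X Y B k l i j) =
      4 * ∑ b, (wdg (fun k l => mk2 (fun a => X a b) (fun a => B b a) k l)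
        (fun k l => mk2 (fun a => X a b) (fun a => B b a) k l) +
        wdg (fun k l => mk2 (fun a => B a b) (fun a => Y a b) k l)
        (fun k l => mk2 (fun a => B a b) (fun a => Y a b) k l)) := by
    have h1 : ∀ k l k' l', ∑ i, ∑ j, mkA X Y B k l i j * mkA X Y B k' l' i j =
        4 * ∑ b, (mk2 (fun a => X a b) (fun a => B b a) k l *
          mk2 (fun a => X a b) (fun a => B b a) k' l' +
          mk2 (fun a => B a b) (fun a => Y a b) k l *
          mk2 (fun a => B a b) (fun a => Y a b) k' l') := by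
      intro k l k' l'
      rw [mkA_eq, mkA_eq, sum_mk2]
    unfold wdg
    simp only [Finset.sum_add_distrib, Finset.sum_sub_distrib, h1]
    ring
  rw [e]
  have h2 : ∀ (u v : Fin 3 → ℝ), wdg (fun k l => mk2 u v k l) (fun k l => mk2 u v k l) =
      wdg (mk2 u v) (mk2 u v) := fun u v => rfl
  simp only [h2, wdg_mk2, n2, Fin.sum_univ_three]
  ring

theorem sqD_mk (X Y B : Fin 3 → Fin 3 → ℝ) : sqD (mkA X Y B) = 2 * n2 Y - 2 * n2 B := by
  unfold sqD
  have e : ∑ a, ∑ b, wdg (fun k l => lamD (mkA X Y B k l) a b)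
      (fun k l => lamD (mkA X Y B k l) a b) =
      8 * ∑ b, wdg (fun k l => mk2 (fun a => B a b) (fun a => Y a b) k l)
        (fun k l => mk2 (fun a => B a b) (fun a => Y a b) k l) := by
    have h1 : ∀ k l k' l', ∑ a, ∑ b, lamD (mkA X Y B k l) a b * lamD (mkA X Y B k' l') a b =
        8 * ∑ b, mk2 (fun a => B a b) (fun a => Y a b) k l *
          mk2 (fun a => B a b) (fun a => Y a b) k' l' := by
      intro k l k' l'
      rw [mkA_eq, mkA_eq, sum_lamD_mk2]
    unfold wdg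
    simp only [Finset.sum_add_distrib, Finset.sum_sub_distrib, h1]
    ring
  rw [e]
  have h2 : ∀ (u v : Fin 3 → ℝ), wdg (fun k l => mk2 u v k l) (fun k l => mk2 u v k l) =
      wdg (mk2 u v) (mk2 u v) := fun u v => rfl
  simp only [h2, wdg_mk2, n2, Fin.sum_univ_three]
  ring

theorem pfD_mk (X Y B : Fin 3 → Fin 3 → ℝ) (hX : ∀ a b, X a b = X b a)
    (hY : ∀ a b, Y a b = Y b a) :
    pfD (mkA X Y B) = (1 / 2) * n2 X + (1 / 2) * n2 Y - n2 B := by
  have h01 := hX 1 0
  have h02 := hX 2 0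
  have h12 := hX 2 1
  have k01 := hY 1 0
  have k02 := hY 2 0
  have k12 := hY 2 1
  have E : ∀ k l, mkA X Y B k l = _ := fun k l => (mkA_eq X Y B k l).trans (mk2_eq _ _)
  unfold pfD
  simp only [E]
  simp only [mk2_eq, wdg, n2, Fin.sum_univ_three]
  simp [h01, h02, h12, k01, k02, k12]
  ring

/-- **Index densities**: `(e - p_1/3)/2`. -/
theorem dens_eq (h : IsCurv A) : dens A = (1 / 2) * (pfD A - (1 / 3) * p1D A) := by
  obtain ⟨X, Y, B, hX, hY, ht, rfl⟩ := exists_XYB h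
  rw [dens_mk hX hY ht, pfD_mk X Y B hX hY, p1D_mk]
  ring

/-- **The identity for `p_1` of the bundle `L₋`** -/
theorem sqD_eq (h : IsCurv A) : sqD A = 5 * dens A - dens (flip A) := by
  obtain ⟨X, Y, B, hX, hY, ht, rfl⟩ := exists_XYB h
  have hB : n2 (fun a b => B b a) = n2 B := by
    simp only [n2, Fin.sum_univ_three]; ring
  rw [flip_mkA, dens_mk hX hY ht, dens_mk hY hX ht.symm, sqD_mk, hB]
  ring

end main

end

end Vale.Agent.P267.H459
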